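import Mathlib

namespace Vale.Agent.Results.P315.EqualityTestLowerBound

/-! ## Edit distance -/

/-- One unit-cost edit operation: insertion, deletion or substitution of a single symbol. -/
inductive EditStep {σ : Type} : List σ → List σ → Prop
  | ins (u v : List σ) (a : σ) : EditStep (u ++ v) (u ++ a :: v)
  | del (u v : List σ) (a : σ) : EditStep (u ++ a :: v) (u ++ v)
  | sub (u v : List σ) (a b : σ) : EditStep (u ++ a :: v) (u ++ b :: v)

/-- `EditIn k x y`: the string `x` can be transformed into `y` by `k` edit operations. -/
inductive EditIn {σ : Type} : ℕ → List σ → List σ → Prop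
  | refl (x : List σ) : EditIn 0 x x
  | step {k : ℕ} {x y z : List σ} : EditIn k x y → EditStep y z → EditIn (k + 1) x z

/-- The unit-cost edit distance: the least number of edit operations transforming `x` into `y`. -/
noncomputable def ED {σ : Type} (x y : List σ) : ℕ := sInf {k | EditIn k x y}

variable {σ : Type}

theorem EditStep.symm {x y : List σ} (h : EditStep x y) : EditStep y x := by
  cases h with
  | ins u v a => exact EditStep.del u v a
  | del u v a => exact EditStep.ins u v a
  | sub u v a b => exact EditStep.sub u v b a

theorem EditStep.ctx (p q : List σ) {x y : List σ} (h : EditStep x y) :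
    EditStep (p ++ x ++ q) (p ++ y ++ q) := by
  cases h with
  | ins u v a =>
    have := EditStep.ins (p ++ u) (v ++ q) a
    simpa [List.append_assoc] using this
  | del u v a =>
    have := EditStep.del (p ++ u) (v ++ q) a
    simpa [List.append_assoc] using this
  | sub u v a b =>
    have := EditStep.sub (p ++ u) (v ++ q) a b
    simpa [List.append_assoc] using this

theorem EditIn.trans {k l : ℕ} {x y z : List σ} (h1 : EditIn k x y) (h2 : EditIn l y z) :
    EditIn (k + l) x z := by
  induction h2 with
  | refl => exact h1
  | step _ hs ih => exact EditIn.step (ih h1) hs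

theorem EditIn.single {x y : List σ} (h : EditStep x y) : EditIn 1 x y :=
  EditIn.step (EditIn.refl x) h

theorem EditIn.symm {k : ℕ} {x y : List σ} (h : EditIn k x y) : EditIn k y x := by
  induction h with
  | refl => exact EditIn.refl _
  | step _ hs ih =>
    have := (EditIn.single hs.symm).trans ih
    rwa [Nat.add_comm] at this

theorem EditIn.ctx (p q : List σ) {k : ℕ} {x y : List σ} (h : EditIn k x y) :
    EditIn k (p ++ x ++ q) (p ++ y ++ q) := by
  induction h with
  | refl => exact EditIn.refl _
  | step _ hs ih => exact EditIn.step ih (hs.ctx p q)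

theorem editIn_nil (x : List σ) : EditIn x.length x [] := by
  induction x with
  | nil => exact EditIn.refl _
  | cons a x ih =>
    have h1 : EditIn 1 (a :: x) x := EditIn.single (EditStep.del [] x a)
    have := h1.trans ih
    simpa [Nat.add_comm] using this

theorem editIn_nonempty (x y : List σ) : {k | EditIn k x y}.Nonempty :=
  ⟨x.length + y.length, (editIn_nil x).trans (editIn_nil y).symm⟩

theorem editIn_ED (x y : List σ) : EditIn (ED x y) x y := Nat.sInf_mem (editIn_nonempty x y)

theorem ED_le {k : ℕ} {x y : List σ} (h : EditIn k x y) : ED x y ≤ k := Nat.sInf_le h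

theorem ED_comm (x y : List σ) : ED x y = ED y x :=
  le_antisymm (ED_le (editIn_ED y x).symm) (ED_le (editIn_ED x y).symm)

theorem ED_triangle (x y z : List σ) : ED x z ≤ ED x y + ED y z :=
  ED_le ((editIn_ED x y).trans (editIn_ED y z))

theorem ED_ctx (p q x y : List σ) : ED (p ++ x ++ q) (p ++ y ++ q) ≤ ED x y :=
  ED_le ((editIn_ED x y).ctx p q)

theorem ED_self (x : List σ) : ED x x = 0 := Nat.le_zero.1 (ED_le (EditIn.refl x))

theorem ED_nil_right (x : List σ) : ED x [] ≤ x.length := ED_le (editIn_nil x)

theorem ED_append_right_le (x u : List σ) : ED (x ++ u) x ≤ u.length := by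
  have := ED_ctx x [] u []
  simp only [List.append_nil] at this
  exact this.trans (ED_nil_right u)

theorem ED_append_left_le (x u : List σ) : ED x (u ++ x) ≤ u.length := by
  have := ED_ctx [] x u []
  simp only [List.nil_append] at this
  rw [ED_comm]
  exact this.trans (ED_nil_right u)

theorem ED_singleton [DecidableEq σ] (a b : σ) : ED [a] [b] ≤ if a = b then 0 else 1 := by
  split_ifs with h
  · subst h; exact (ED_self _).le
  · exact ED_le (EditIn.single (EditStep.sub [] [] a b))

/-- Hamming bound -/
theorem ED_map_range [DecidableEq σ] (f g : ℕ → σ) (m : ℕ) :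
    ED ((List.range m).map f) ((List.range m).map g) ≤
      ((Finset.range m).filter (fun i => f i ≠ g i)).card := by
  induction m with
  | zero => simp [ED_self]
  | succ m ih =>
    rw [List.range_succ, List.map_append, List.map_append, Finset.range_add_one,
      Finset.filter_insert]
    simp only [List.map_cons, List.map_nil]
    have h1 : ED ((List.range m).map f ++ [f m]) ((List.range m).map g ++ [f m]) ≤
        ED ((List.range m).map f) ((List.range m).map g) := by
      have := ED_ctx [] [f m] ((List.range m).map f) ((List.range m).map g)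
      simpa using this
    have h2 : ED ((List.range m).map g ++ [f m]) ((List.range m).map g ++ [g m]) ≤
        ED [f m] [g m] := by
      have := ED_ctx ((List.range m).map g) [] [f m] [g m]
      simpa using this
    have h3 := ED_singleton (f m) (g m)
    have h4 := ED_triangle ((List.range m).map f ++ [f m]) ((List.range m).map g ++ [f m])
      ((List.range m).map g ++ [g m])
    by_cases hfg : f m = g m
    · rw [if_neg (by simpa using hfg)]
      rw [if_pos hfg] at h3
      omega
    · rw [if_pos hfg, Finset.card_insert_of_notMem (by simp)]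
      rw [if_neg hfg] at h3
      omega

/-- Aligning `x` with `y` shifted by `s`. -/
theorem ED_shift [DecidableEq σ] (f g : ℕ → σ) (m s : ℕ) :
    ED ((List.range (m + s)).map f) ((List.range (m + s)).map g) ≤
      2 * s + ((Finset.range m).filter (fun i => f i ≠ g (s + i))).card := by
  have hx : (List.range (m + s)).map f =
      (List.range m).map f ++ (List.range s).map (fun i => f (m + i)) := by
    rw [List.range_add, List.map_append, List.map_map]; rfl
  have hy : (List.range (m + s)).map g =
      (List.range s).map g ++ (List.range m).map (fun i => g (s + i)) := by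
    rw [Nat.add_comm m s, List.range_add, List.map_append, List.map_map]; rfl
  rw [hx, hy]
  have h1 := ED_append_right_le ((List.range m).map f) ((List.range s).map (fun i => f (m + i)))
  have h2 := ED_map_range f (fun i => g (s + i)) m
  have h3 := ED_append_left_le ((List.range m).map (fun i => g (s + i))) ((List.range s).map g)
  have h4 := ED_triangle ((List.range m).map f ++ (List.range s).map (fun i => f (m + i)))
    ((List.range m).map f) ((List.range s).map g ++ (List.range m).map (fun i => g (s + i)))
  have h5 := ED_triangle ((List.range m).map f) ((List.range m).map (fun i => g (s + i)))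
    ((List.range s).map g ++ (List.range m).map (fun i => g (s + i)))
  simp only [List.length_map, List.length_range] at h1 h3
  omega

/-- A potential: the number of symbols satisfying `p` changes by at most one per operation. -/
theorem EditStep.countP_le (p : σ → Bool) {x y : List σ} (h : EditStep x y) :
    x.countP p ≤ y.countP p + 1 := by
  cases h with
  | ins u v a =>
    simp only [List.countP_append, List.countP_cons]; omega
  | del u v a =>
    simp only [List.countP_append, List.countP_cons]; split_ifs <;> omega
  | sub u v a b =>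
    simp only [List.countP_append, List.countP_cons]; split_ifs <;> omega

theorem EditIn.countP_le (p : σ → Bool) {k : ℕ} {x y : List σ} (h : EditIn k x y) :
    x.countP p ≤ y.countP p + k := by
  induction h with
  | refl => simp
  | step _ hs ih => have := hs.countP_le p; omega

theorem countP_le_ED (p : σ → Bool) (x y : List σ) : x.countP p ≤ y.countP p + ED x y :=
  (editIn_ED x y).countP_le p

/-! ## Equality-test decision trees -/

/-- A deterministic algorithm on a pair of strings `x, y` of length `n` that accesses the symbols
only through equality tests.  `Sum.inl i` is position `i` of `x`, `Sum.inr j` is position `j` of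
`y`.  A leaf outputs a real number; an inner node tests whether the symbols at two positions are
equal and branches on the answer. -/
inductive EqTree (n : ℕ) : Type
  | out (d : ℝ) : EqTree n
  | test (p q : Fin n ⊕ Fin n) (yes no : EqTree n) : EqTree n

/-- The output of the tree on the input `z` (the symbol at each position). -/
def EqTree.eval {n : ℕ} : EqTree n → (Fin n ⊕ Fin n → ℕ) → ℝ
  | .out d, _ => d
  | .test p q yes no, z => if z p = z q then yes.eval z else no.eval z

/-- The number of equality tests the tree performs on the input `z`. -/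
def EqTree.cost {n : ℕ} : EqTree n → (Fin n ⊕ Fin n → ℕ) → ℕ
  | .out _, _ => 0
  | .test p q yes no, z => (if z p = z q then yes.cost z else no.cost z) + 1

/-- The list of tested pairs of positions on the input `z`. -/
def EqTree.path {n : ℕ} : EqTree n → (Fin n ⊕ Fin n → ℕ) →
    List ((Fin n ⊕ Fin n) × (Fin n ⊕ Fin n))
  | .out _, _ => []
  | .test p q yes no, z => (p, q) :: (if z p = z q then yes.path z else no.path z)

theorem EqTree.length_path {n : ℕ} (T : EqTree n) (z : Fin n ⊕ Fin n → ℕ) :
    (T.path z).length = T.cost z := by
  induction T with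
  | out d => rfl
  | test p q yes no ihy ihn =>
    simp only [EqTree.path, EqTree.cost, List.length_cons]
    split_ifs <;> simp [ihy, ihn]

theorem EqTree.eval_congr {n : ℕ} (T : EqTree n) (z z' : Fin n ⊕ Fin n → ℕ)
    (h : ∀ pq ∈ T.path z, (z' pq.1 = z' pq.2 ↔ z pq.1 = z pq.2)) : T.eval z' = T.eval z := by
  induction T with
  | out d => rfl
  | test p q yes no ihy ihn =>
    have h0 : (z' p = z' q ↔ z p = z q) := h (p, q) (by simp [EqTree.path])
    by_cases hz : z p = z q
    · have hz' : z' p = z' q := h0.2 hz
      simp only [EqTree.eval, if_pos hz, if_pos hz']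
      apply ihy
      intro pq hpq
      apply h
      simp only [EqTree.path, if_pos hz]
      exact List.mem_cons_of_mem _ hpq
    · have hz' : ¬ z' p = z' q := fun h' => hz (h0.1 h')
      simp only [EqTree.eval, if_neg hz, if_neg hz']
      apply ihn
      intro pq hpq
      apply h
      simp only [EqTree.path, if_neg hz]
      exact List.mem_cons_of_mem _ hpq

/-- the cell `(i, j)` of a test between position `i` of `x` and position `j` of `y` -/
def cellOf {n : ℕ} : (Fin n ⊕ Fin n) × (Fin n ⊕ Fin n) → Option (ℕ × ℕ)
  | (.inl i, .inr j) => some (i.val, j.val)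
  | (.inr j, .inl i) => some (i.val, j.val)
  | _ => none

theorem ofFn_val (n : ℕ) (g : ℕ → ℕ) :
    List.ofFn (fun i : Fin n => g i.val) = (List.range n).map g := by
  apply List.ext_getElem <;> simp

/-- the hard input: all `2 n` symbols are distinct -/
def zA (n : ℕ) : Fin n ⊕ Fin n → ℕ := Sum.elim (fun i => i.val) (fun j => n + j.val)

theorem ED_hard (n : ℕ) : n ≤ ED ((List.range n).map id) ((List.range n).map (fun j => n + j)) := by
  have h := countP_le_ED (fun a => decide (a < n)) ((List.range n).map id)
    ((List.range n).map (fun j => n + j))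
  have h1 : ((List.range n).map id).countP (fun a => decide (a < n)) = n := by
    rw [List.map_id, List.countP_eq_length.2]
    · simp
    · intro a ha; simpa using ha
  have h2 : ((List.range n).map (fun j => n + j)).countP (fun a => decide (a < n)) = 0 := by
    rw [List.countP_eq_zero]
    intro a ha
    simp only [List.mem_map, List.mem_range] at ha
    obtain ⟨j, _, rfl⟩ := ha
    simp
  omega

theorem sum_abs (S : ℕ) (M : ℝ) :
    ∑ t ∈ Finset.Icc (-(S : ℤ)) S, (M - 2 * |(t : ℝ)|) = (2 * S + 1) * M - 2 * S * (S + 1) := by
  induction S with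
  | zero => simp
  | succ S ih =>
    have hI : Finset.Icc (-((S + 1 : ℕ) : ℤ)) ((S + 1 : ℕ) : ℤ) =
        insert (-((S : ℤ) + 1)) (insert ((S : ℤ) + 1) (Finset.Icc (-(S : ℤ)) S)) := by
      ext t
      simp only [Finset.mem_Icc, Finset.mem_insert]
      push_cast
      omega
    rw [hI, Finset.sum_insert, Finset.sum_insert, ih]
    · push_cast
      have h1 : |(-((S : ℝ) + 1))| = (S : ℝ) + 1 := by
        rw [abs_neg, abs_of_nonneg (by positivity)]
      have h2 : |((S : ℝ) + 1)| = (S : ℝ) + 1 := abs_of_nonneg (by positivity)
      rw [h1, h2]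
      ring
    · simp only [Finset.mem_Icc]; omega
    · simp only [Finset.mem_insert, Finset.mem_Icc]; omega

/-- the cells tested on the hard input -/
def testedCells {n : ℕ} (T : EqTree n) : Finset (ℕ × ℕ) :=
  ((T.path (zA n)).filterMap cellOf).toFinset

theorem card_testedCells_le {n : ℕ} (T : EqTree n) : (testedCells T).card ≤ T.cost (zA n) := by
  rw [← T.length_path]
  exact (List.toFinset_card_le _).trans (List.length_filterMap_le _ _)

theorem eval_planted {n : ℕ} (T : EqTree n) (Y : ℕ → ℕ)
    (hinj : ∀ j j', j < n → j' < n → Y j = Y j' → j = j')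
    (hQ : ∀ i j, i < n → j < n → Y j = i → (i, j) ∉ testedCells T) :
    T.eval (Sum.elim (fun i => i.val) (fun j => Y j.val)) = T.eval (zA n) := by
  apply T.eval_congr
  rintro ⟨p, q⟩ hpq
  rcases p with i | j <;> rcases q with i' | j'
  · simp [zA]
  · simp only [Sum.elim_inl, Sum.elim_inr, zA]
    constructor
    · intro h
      exfalso
      apply hQ i.val j'.val i.2 j'.2 h.symm
      simp only [testedCells, List.mem_toFinset, List.mem_filterMap]
      exact ⟨_, hpq, rfl⟩
    · intro h; have := i.2; omega
  · simp only [Sum.elim_inl, Sum.elim_inr, zA]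
    constructor
    · intro h
      exfalso
      apply hQ i'.val j.val i'.2 j.2 h
      simp only [testedCells, List.mem_toFinset, List.mem_filterMap]
      exact ⟨_, hpq, rfl⟩
    · intro h; have := i'.2; omega
  · simp only [Sum.elim_inr, zA]
    constructor
    · intro h; have := hinj _ _ j.2 j'.2 h; omega
    · intro h
      have : j.val = j'.val := by omega
      rw [this]

/-- `T` is an `α`-approximation algorithm for the edit distance of two strings of length `n` over
the alphabet `{0, ..., 2 n - 1}`. -/
def Approximates {n : ℕ} (T : EqTree n) (α : ℝ) : Prop :=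
  ∀ x y : Fin n → ℕ, (∀ i, x i < 2 * n) → (∀ j, y j < 2 * n) →
    (ED (List.ofFn x) (List.ofFn y) : ℝ) ≤ T.eval (Sum.elim x y) ∧
    T.eval (Sum.elim x y) ≤ α * ED (List.ofFn x) (List.ofFn y)

theorem key {n : ℕ} (T : EqTree n) (α : ℝ) (hT : Approximates T α) (Y : ℕ → ℕ)
    (hlt : ∀ j, j < n → Y j < 2 * n)
    (hinj : ∀ j j', j < n → j' < n → Y j = Y j' → j = j')
    (hQ : ∀ i j, i < n → j < n → Y j = i → (i, j) ∉ testedCells T) :
    (n : ℝ) ≤ α * ED ((List.range n).map id) ((List.range n).map Y) := by
  have hA := (hT (fun i => i.val) (fun j => n + j.val) (fun i => by have := i.2; omega)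
    (fun j => by have := j.2; omega)).1
  have hB := (hT (fun i => i.val) (fun j => Y j.val) (fun i => by have := i.2; omega)
    (fun j => hlt _ j.2)).2
  rw [eval_planted T Y hinj hQ] at hB
  have e1 : List.ofFn (fun i : Fin n => i.val) = (List.range n).map id := ofFn_val n id
  have e2 : List.ofFn (fun j : Fin n => n + j.val) = (List.range n).map (fun j => n + j) :=
    ofFn_val n (fun j => n + j)
  have e3 : List.ofFn (fun j : Fin n => Y j.val) = (List.range n).map Y := ofFn_val n Y
  rw [e1, e2] at hA
  rw [e1, e3] at hB
  have hn : (n : ℝ) ≤ ED ((List.range n).map id) ((List.range n).map (fun j => n + j)) := by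
    exact_mod_cast ED_hard n
  exact (hn.trans hA).trans hB

/-- number of tested cells on the diagonal `j - i = t` -/
def diagCount {n : ℕ} (T : EqTree n) (t : ℤ) : ℕ :=
  ((testedCells T).filter (fun c => (c.2 : ℤ) - (c.1 : ℤ) = t)).card

theorem key_plus {n : ℕ} (T : EqTree n) (α : ℝ) (hα : 0 ≤ α) (hT : Approximates T α) (s : ℕ)
    (hs : s ≤ n) : (n : ℝ) ≤ α * (2 * s + diagCount T s) := by
  classical
  obtain ⟨m, rfl⟩ : ∃ m, n = m + s := ⟨n - s, by omega⟩
  set Q := testedCells T with hQdef
  let Y : ℕ → ℕ := fun j => if s ≤ j ∧ (j - s, j) ∉ Q then j - s else (m + s) + j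
  have hk := key T α hT Y
    (by
      intro j hj
      simp only [Y]; split_ifs <;> omega)
    (by
      intro j j' hj hj' h
      simp only [Y] at h
      split_ifs at h <;> omega)
    (by
      intro i j hi hj h
      simp only [Y] at h
      split_ifs at h with hc
      · have : j - s = i := h
        rw [← this]; exact hc.2
      · omega)
  have hsh := ED_shift (id : ℕ → ℕ) Y m s
  have hcard : ((Finset.range m).filter (fun i => id i ≠ Y (s + i))).card ≤ diagCount T s := by
    apply Finset.card_le_card_of_injOn (fun i => (i, s + i))
    · intro i hi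
      simp only [Finset.coe_filter, Finset.mem_range, Set.mem_ofPred_eq] at hi
      obtain ⟨_, hne⟩ := hi
      simp only [Finset.coe_filter, Set.mem_ofPred_eq]
      refine ⟨?_, by push_cast; ring⟩
      by_contra hnot
      apply hne
      simp only [Y, id]
      rw [if_pos]
      · omega
      · refine ⟨by omega, ?_⟩
        have : s + i - s = i := by omega
        rw [this]; exact hnot
    · intro a _ b _ hab
      simpa using congrArg Prod.fst hab
  have h1 : (ED ((List.range (m + s)).map id) ((List.range (m + s)).map Y) : ℝ) ≤
      2 * s + diagCount T s := by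
    have : ED ((List.range (m + s)).map id) ((List.range (m + s)).map Y) ≤
      2 * s + diagCount T s := hsh.trans (by omega)
    exact_mod_cast this
  exact hk.trans (mul_le_mul_of_nonneg_left h1 hα)

theorem key_minus {n : ℕ} (T : EqTree n) (α : ℝ) (hα : 0 ≤ α) (hT : Approximates T α) (s : ℕ)
    (hs : s ≤ n) : (n : ℝ) ≤ α * (2 * s + diagCount T (-(s : ℤ))) := by
  classical
  obtain ⟨m, rfl⟩ : ∃ m, n = m + s := ⟨n - s, by omega⟩
  set Q := testedCells T with hQdef
  let Y : ℕ → ℕ := fun j => if j < m ∧ (s + j, j) ∉ Q then s + j else (m + s) + j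
  have hk := key T α hT Y
    (by
      intro j hj
      simp only [Y]; split_ifs <;> omega)
    (by
      intro j j' hj hj' h
      simp only [Y] at h
      split_ifs at h <;> omega)
    (by
      intro i j hi hj h
      simp only [Y] at h
      split_ifs at h with hc
      · have : s + j = i := h
        rw [← this]; exact hc.2
      · omega)
  have hsh := ED_shift Y (id : ℕ → ℕ) m s
  rw [ED_comm] at hsh
  have hcard : ((Finset.range m).filter (fun i => Y i ≠ id (s + i))).card ≤
      diagCount T (-(s : ℤ)) := by
    apply Finset.card_le_card_of_injOn (fun i => (s + i, i))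
    · intro i hi
      simp only [Finset.coe_filter, Finset.mem_range, Set.mem_ofPred_eq] at hi
      obtain ⟨him, hne⟩ := hi
      simp only [Finset.coe_filter, Set.mem_ofPred_eq]
      refine ⟨?_, by push_cast; ring⟩
      by_contra hnot
      apply hne
      simp only [Y, id]
      rw [if_pos ⟨him, hnot⟩]
    · intro a _ b _ hab
      simpa using congrArg Prod.snd hab
  have h1 : (ED ((List.range (m + s)).map id) ((List.range (m + s)).map Y) : ℝ) ≤
      2 * s + diagCount T (-(s : ℤ)) := by
    have : ED ((List.range (m + s)).map id) ((List.range (m + s)).map Y) ≤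
      2 * s + diagCount T (-(s : ℤ)) := hsh.trans (by omega)
    exact_mod_cast this
  exact hk.trans (mul_le_mul_of_nonneg_left h1 hα)

theorem key_int {n : ℕ} (T : EqTree n) (α : ℝ) (hα : 0 ≤ α) (hT : Approximates T α) (t : ℤ)
    (ht : |t| ≤ n) : (n : ℝ) ≤ α * (2 * |(t : ℝ)| + diagCount T t) := by
  rcases le_total 0 t with h | h
  · obtain ⟨s, rfl⟩ := Int.eq_ofNat_of_zero_le h
    have hs : s ≤ n := by
      rw [abs_of_nonneg h] at ht; exact_mod_cast ht
    have := key_plus T α hα hT s hs
    simpa using this
  · obtain ⟨s, hs'⟩ := Int.eq_ofNat_of_zero_le (neg_nonneg.2 h)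
    have ht' : t = -(s : ℤ) := by omega
    subst ht'
    have hs : s ≤ n := by
      rw [abs_neg, abs_of_nonneg (by positivity)] at ht; exact_mod_cast ht
    have := key_minus T α hα hT s hs
    simpa using this

/-- **Main theorem.** Every deterministic algorithm that accesses the two input strings of length
`n` (over an alphabet of size `2 n`) only through symbol equality tests and that approximates their
edit distance within a factor `α ≥ 1` performs at least `n ^ 2 / (2 α ^ 2)` tests on some input. -/
theorem result (n : ℕ) (α : ℝ) (hα : 1 ≤ α) (T : EqTree n) (hT : Approximates T α) :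
    ∃ x y : Fin n → ℕ, (∀ i, x i < 2 * n) ∧ (∀ j, y j < 2 * n) ∧
      (n : ℝ) ^ 2 / (2 * α ^ 2) ≤ T.cost (Sum.elim x y) := by
  classical
  refine ⟨fun i => i.val, fun j => n + j.val, fun i => by have := i.2; simp only; omega,
    fun j => by have := j.2; simp only; omega, ?_⟩
  change (n : ℝ) ^ 2 / (2 * α ^ 2) ≤ T.cost (zA n)
  have hα0 : 0 < α := by linarith
  set M : ℝ := n / α with hM
  have hM0 : 0 ≤ M := by positivity
  have hMn : M ≤ n := div_le_self (by positivity) hα
  set S : ℕ := ⌊M / 2⌋₊ with hS
  have hS1 : (S : ℝ) ≤ M / 2 := Nat.floor_le (by positivity)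
  have hS2 : M / 2 < S + 1 := Nat.lt_floor_add_one _
  have hSn : S ≤ n := by
    have : (S : ℝ) ≤ n := by linarith
    exact_mod_cast this
  -- each diagonal
  have hdiag : ∀ t ∈ Finset.Icc (-(S : ℤ)) S, M - 2 * |(t : ℝ)| ≤ (diagCount T t : ℝ) := by
    intro t ht
    rw [Finset.mem_Icc] at ht
    have habs : |t| ≤ n := by
      rw [abs_le]; constructor <;> omega
    have := key_int T α hα0.le hT t habs
    rw [hM, div_sub' hα0.ne', div_le_iff₀ hα0]
    nlinarith
  have hsum : ∑ t ∈ Finset.Icc (-(S : ℤ)) S, (M - 2 * |(t : ℝ)|) ≤
      ∑ t ∈ Finset.Icc (-(S : ℤ)) S, (diagCount T t : ℝ) := Finset.sum_le_sum hdiag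
  have hfib : ∑ t ∈ Finset.Icc (-(S : ℤ)) S, diagCount T t ≤ (testedCells T).card := by
    unfold diagCount
    rw [Finset.sum_card_fiberwise_eq_card_filter]
    exact Finset.card_filter_le _ _
  have hfib' : ∑ t ∈ Finset.Icc (-(S : ℤ)) S, (diagCount T t : ℝ) ≤ T.cost (zA n) := by
    have := hfib.trans (card_testedCells_le T)
    exact_mod_cast this
  rw [sum_abs] at hsum
  have hfinal : M ^ 2 / 2 ≤ (2 * S + 1) * M - 2 * S * (S + 1) := by
    nlinarith [mul_nonneg (sub_nonneg.2 hS1) (sub_nonneg.2 hS2.le)]
  have hrew : (n : ℝ) ^ 2 / (2 * α ^ 2) = M ^ 2 / 2 := by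
    rw [hM]; field_simp
  rw [hrew]
  linarith

end Vale.Agent.Results.P315.EqualityTestLowerBound
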