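import Vale.Agent.Results.P315.EqualityTestLowerBound

namespace Vale.Agent.Results.P315.LceOracleLowerBound

open Vale.Agent.Results.P315.EqualityTestLowerBound

/-- length of the longest common initial segment of two lists -/
def lcp : List ℕ → List ℕ → ℕ
  | a :: l, b :: l' => if a = b then lcp l l' + 1 else 0
  | _, _ => 0

/-- the part of the string containing position `p` that starts at `p`
(`Sum.inl i` is position `i` of `x`, `Sum.inr j` is position `j` of `y`) -/
def suffixAt {n : ℕ} (z : Fin n ⊕ Fin n → ℕ) : Fin n ⊕ Fin n → List ℕ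
  | .inl i => (List.ofFn (fun k => z (.inl k))).drop i.val
  | .inr j => (List.ofFn (fun k => z (.inr k))).drop j.val

/-- longest common extension: the largest `l` such that the substrings of length `l` starting at
the positions `p` and `q` exist and are equal -/
def lce {n : ℕ} (z : Fin n ⊕ Fin n → ℕ) (p q : Fin n ⊕ Fin n) : ℕ :=
  lcp (suffixAt z p) (suffixAt z q)

/-- A deterministic algorithm that accesses the pair of strings only through longest common
extension queries between two arbitrary positions, branching on the answer. -/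
inductive LceTree (n : ℕ) : Type
  | out (d : ℝ) : LceTree n
  | query (p q : Fin n ⊕ Fin n) (next : ℕ → LceTree n) : LceTree n

/-- output on the input `z` -/
def LceTree.eval {n : ℕ} : LceTree n → (Fin n ⊕ Fin n → ℕ) → ℝ
  | .out d, _ => d
  | .query p q next, z => (next (lce z p q)).eval z

/-- number of queries made on the input `z` -/
def LceTree.cost {n : ℕ} : LceTree n → (Fin n ⊕ Fin n → ℕ) → ℕ
  | .out _, _ => 0
  | .query p q next, z => (next (lce z p q)).cost z + 1

/-- the queried pairs on the input `z` -/
def LceTree.path {n : ℕ} : LceTree n → (Fin n ⊕ Fin n → ℕ) →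
    List ((Fin n ⊕ Fin n) × (Fin n ⊕ Fin n))
  | .out _, _ => []
  | .query p q next, z => (p, q) :: (next (lce z p q)).path z

theorem LceTree.length_path {n : ℕ} (T : LceTree n) (z : Fin n ⊕ Fin n → ℕ) :
    (T.path z).length = T.cost z := by
  induction T with
  | out d => rfl
  | query p q next ih =>
    simp only [LceTree.path, LceTree.cost, List.length_cons, ih]

theorem LceTree.eval_congr {n : ℕ} (T : LceTree n) (z z' : Fin n ⊕ Fin n → ℕ)
    (h : ∀ pq ∈ T.path z, lce z' pq.1 pq.2 = lce z pq.1 pq.2) : T.eval z' = T.eval z := by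
  induction T with
  | out d => rfl
  | query p q next ih =>
    have h0 : lce z' p q = lce z p q := h (p, q) (by simp [LceTree.path])
    simp only [LceTree.eval, h0]
    apply ih
    intro pq hpq
    apply h
    simp only [LceTree.path]
    exact List.mem_cons_of_mem _ hpq

theorem lcp_self (l : List ℕ) : lcp l l = l.length := by
  induction l with
  | nil => rfl
  | cons a l ih => simp [lcp, ih]

theorem suffixAt_eq_cons {n : ℕ} (z : Fin n ⊕ Fin n → ℕ) (p : Fin n ⊕ Fin n) :
    ∃ l, suffixAt z p = z p :: l := by
  rcases p with i | j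
  · refine ⟨(List.ofFn (fun k => z (.inl k))).drop (i.val + 1), ?_⟩
    simp only [suffixAt]
    rw [List.drop_eq_getElem_cons (by simp)]
    simp
  · refine ⟨(List.ofFn (fun k => z (.inr k))).drop (j.val + 1), ?_⟩
    simp only [suffixAt]
    rw [List.drop_eq_getElem_cons (by simp)]
    simp

theorem length_suffixAt {n : ℕ} (z : Fin n ⊕ Fin n → ℕ) (p : Fin n ⊕ Fin n) :
    (suffixAt z p).length = n - Sum.elim Fin.val Fin.val p := by
  rcases p with i | j <;> simp [suffixAt]

theorem lce_self {n : ℕ} (z : Fin n ⊕ Fin n → ℕ) (p : Fin n ⊕ Fin n) :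
    lce z p p = n - Sum.elim Fin.val Fin.val p := by
  rw [lce, lcp_self, length_suffixAt]

theorem lce_of_ne {n : ℕ} (z : Fin n ⊕ Fin n → ℕ) (p q : Fin n ⊕ Fin n) (h : z p ≠ z q) :
    lce z p q = 0 := by
  obtain ⟨l, hl⟩ := suffixAt_eq_cons z p
  obtain ⟨l', hl'⟩ := suffixAt_eq_cons z q
  rw [lce, hl, hl', lcp, if_neg h]

/-- the cells queried on the hard input -/
def queriedCells {n : ℕ} (T : LceTree n) : Finset (ℕ × ℕ) :=
  ((T.path (zA n)).filterMap cellOf).toFinset

theorem card_queriedCells_le {n : ℕ} (T : LceTree n) : (queriedCells T).card ≤ T.cost (zA n) := by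
  rw [← T.length_path]
  exact (List.toFinset_card_le _).trans (List.length_filterMap_le _ _)

theorem eval_planted' {n : ℕ} (T : LceTree n) (Y : ℕ → ℕ)
    (hinj : ∀ j j', j < n → j' < n → Y j = Y j' → j = j')
    (hQ : ∀ i j, i < n → j < n → Y j = i → (i, j) ∉ queriedCells T) :
    T.eval (Sum.elim (fun i => i.val) (fun j => Y j.val)) = T.eval (zA n) := by
  apply T.eval_congr
  rintro ⟨p, q⟩ hpq
  by_cases hpq' : p = q
  · subst hpq'
    simp only [lce_self]
  simp only
  rw [lce_of_ne, lce_of_ne]
  · -- the hard input is injective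
    rcases p with i | j <;> rcases q with i' | j'
    · simp only [zA, Sum.elim_inl]
      intro h; exact hpq' (by rw [Fin.ext h])
    · simp only [zA, Sum.elim_inl, Sum.elim_inr]
      have := i.2; omega
    · simp only [zA, Sum.elim_inl, Sum.elim_inr]
      have := i'.2; omega
    · simp only [zA, Sum.elim_inr]
      intro h
      have : j = j' := Fin.ext (by omega)
      exact hpq' (by rw [this])
  · rcases p with i | j <;> rcases q with i' | j'
    · simp only [Sum.elim_inl]
      intro h; exact hpq' (by rw [Fin.ext h])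
    · simp only [Sum.elim_inl, Sum.elim_inr]
      intro h
      apply hQ i.val j'.val i.2 j'.2 h.symm
      simp only [queriedCells, List.mem_toFinset, List.mem_filterMap]
      exact ⟨_, hpq, rfl⟩
    · simp only [Sum.elim_inl, Sum.elim_inr]
      intro h
      apply hQ i'.val j.val i'.2 j.2 h
      simp only [queriedCells, List.mem_toFinset, List.mem_filterMap]
      exact ⟨_, hpq, rfl⟩
    · simp only [Sum.elim_inr]
      intro h
      have : j = j' := Fin.ext (hinj _ _ j.2 j'.2 h)
      exact hpq' (by rw [this])

/-- `T` is an `α`-approximation algorithm for the edit distance of two strings of length `n` over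
the alphabet `{0, ..., 2 n - 1}`. -/
def ApproximatesED {n : ℕ} (T : LceTree n) (α : ℝ) : Prop :=
  ∀ x y : Fin n → ℕ, (∀ i, x i < 2 * n) → (∀ j, y j < 2 * n) →
    (ED (List.ofFn x) (List.ofFn y) : ℝ) ≤ T.eval (Sum.elim x y) ∧
    T.eval (Sum.elim x y) ≤ α * ED (List.ofFn x) (List.ofFn y)

theorem key' {n : ℕ} (T : LceTree n) (α : ℝ) (hT : ApproximatesED T α) (Y : ℕ → ℕ)
    (hlt : ∀ j, j < n → Y j < 2 * n)
    (hinj : ∀ j j', j < n → j' < n → Y j = Y j' → j = j')
    (hQ : ∀ i j, i < n → j < n → Y j = i → (i, j) ∉ queriedCells T) :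
    (n : ℝ) ≤ α * ED ((List.range n).map id) ((List.range n).map Y) := by
  have hA := (hT (fun i => i.val) (fun j => n + j.val) (fun i => by have := i.2; omega)
    (fun j => by have := j.2; omega)).1
  have hB := (hT (fun i => i.val) (fun j => Y j.val) (fun i => by have := i.2; omega)
    (fun j => hlt _ j.2)).2
  rw [eval_planted' T Y hinj hQ] at hB
  have e1 : List.ofFn (fun i : Fin n => i.val) = (List.range n).map id := ofFn_val n id
  have e2 : List.ofFn (fun j : Fin n => n + j.val) = (List.range n).map (fun j => n + j) :=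
    ofFn_val n (fun j => n + j)
  have e3 : List.ofFn (fun j : Fin n => Y j.val) = (List.range n).map Y := ofFn_val n Y
  rw [e1, e2] at hA
  rw [e1, e3] at hB
  have hn : (n : ℝ) ≤ ED ((List.range n).map id) ((List.range n).map (fun j => n + j)) := by
    exact_mod_cast ED_hard n
  exact (hn.trans hA).trans hB

/-- number of queried cells on the diagonal `j - i = t` -/
def diagCount' {n : ℕ} (T : LceTree n) (t : ℤ) : ℕ :=
  ((queriedCells T).filter (fun c => (c.2 : ℤ) - (c.1 : ℤ) = t)).card

theorem key_plus' {n : ℕ} (T : LceTree n) (α : ℝ) (hα : 0 ≤ α) (hT : ApproximatesED T α) (s : ℕ)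
    (hs : s ≤ n) : (n : ℝ) ≤ α * (2 * s + diagCount' T s) := by
  classical
  obtain ⟨m, rfl⟩ : ∃ m, n = m + s := ⟨n - s, by omega⟩
  set Q := queriedCells T with hQdef
  let Y : ℕ → ℕ := fun j => if s ≤ j ∧ (j - s, j) ∉ Q then j - s else (m + s) + j
  have hk := key' T α hT Y
    (by
      intro j hj
      simp only [Y]; split_ifs <;> omega)
    (by
      intro j j' hj hj' h
      simp only [Y] at h
      split_ifs at h <;> omega)
    (by
      intro i j hi hj h
      simp only [Y] at h
      split_ifs at h with hc
      · have : j - s = i := h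
        rw [← this]; exact hc.2
      · omega)
  have hsh := ED_shift (id : ℕ → ℕ) Y m s
  have hcard : ((Finset.range m).filter (fun i => id i ≠ Y (s + i))).card ≤ diagCount' T s := by
    apply Finset.card_le_card_of_injOn (fun i => (i, s + i))
    · intro i hi
      simp only [Finset.coe_filter, Finset.mem_range, Set.mem_ofPred_eq] at hi
      obtain ⟨_, hne⟩ := hi
      simp only [Finset.coe_filter, Set.mem_ofPred_eq]
      refine ⟨?_, by push_cast; ring⟩
      by_contra hnot
      apply hne
      simp only [Y, id]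
      rw [if_pos]
      · omega
      · refine ⟨by omega, ?_⟩
        have : s + i - s = i := by omega
        rw [this]; exact hnot
    · intro a _ b _ hab
      simpa using congrArg Prod.fst hab
  have h1 : (ED ((List.range (m + s)).map id) ((List.range (m + s)).map Y) : ℝ) ≤
      2 * s + diagCount' T s := by
    have : ED ((List.range (m + s)).map id) ((List.range (m + s)).map Y) ≤
      2 * s + diagCount' T s := hsh.trans (by omega)
    exact_mod_cast this
  exact hk.trans (mul_le_mul_of_nonneg_left h1 hα)

theorem key_minus' {n : ℕ} (T : LceTree n) (α : ℝ) (hα : 0 ≤ α) (hT : ApproximatesED T α) (s : ℕ)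
    (hs : s ≤ n) : (n : ℝ) ≤ α * (2 * s + diagCount' T (-(s : ℤ))) := by
  classical
  obtain ⟨m, rfl⟩ : ∃ m, n = m + s := ⟨n - s, by omega⟩
  set Q := queriedCells T with hQdef
  let Y : ℕ → ℕ := fun j => if j < m ∧ (s + j, j) ∉ Q then s + j else (m + s) + j
  have hk := key' T α hT Y
    (by
      intro j hj
      simp only [Y]; split_ifs <;> omega)
    (by
      intro j j' hj hj' h
      simp only [Y] at h
      split_ifs at h <;> omega)
    (by
      intro i j hi hj h
      simp only [Y] at h
      split_ifs at h with hc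
      · have : s + j = i := h
        rw [← this]; exact hc.2
      · omega)
  have hsh := ED_shift Y (id : ℕ → ℕ) m s
  rw [ED_comm] at hsh
  have hcard : ((Finset.range m).filter (fun i => Y i ≠ id (s + i))).card ≤
      diagCount' T (-(s : ℤ)) := by
    apply Finset.card_le_card_of_injOn (fun i => (s + i, i))
    · intro i hi
      simp only [Finset.coe_filter, Finset.mem_range, Set.mem_ofPred_eq] at hi
      obtain ⟨him, hne⟩ := hi
      simp only [Finset.coe_filter, Set.mem_ofPred_eq]
      refine ⟨?_, by push_cast; ring⟩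
      by_contra hnot
      apply hne
      simp only [Y, id]
      rw [if_pos ⟨him, hnot⟩]
    · intro a _ b _ hab
      simpa using congrArg Prod.snd hab
  have h1 : (ED ((List.range (m + s)).map id) ((List.range (m + s)).map Y) : ℝ) ≤
      2 * s + diagCount' T (-(s : ℤ)) := by
    have : ED ((List.range (m + s)).map id) ((List.range (m + s)).map Y) ≤
      2 * s + diagCount' T (-(s : ℤ)) := hsh.trans (by omega)
    exact_mod_cast this
  exact hk.trans (mul_le_mul_of_nonneg_left h1 hα)

theorem key_int' {n : ℕ} (T : LceTree n) (α : ℝ) (hα : 0 ≤ α) (hT : ApproximatesED T α) (t : ℤ)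
    (ht : |t| ≤ n) : (n : ℝ) ≤ α * (2 * |(t : ℝ)| + diagCount' T t) := by
  rcases le_total 0 t with h | h
  · obtain ⟨s, rfl⟩ := Int.eq_ofNat_of_zero_le h
    have hs : s ≤ n := by
      rw [abs_of_nonneg h] at ht; exact_mod_cast ht
    have := key_plus' T α hα hT s hs
    simpa using this
  · obtain ⟨s, hs'⟩ := Int.eq_ofNat_of_zero_le (neg_nonneg.2 h)
    have ht' : t = -(s : ℤ) := by omega
    subst ht'
    have hs : s ≤ n := by
      rw [abs_neg, abs_of_nonneg (by positivity)] at ht; exact_mod_cast ht
    have := key_minus' T α hα hT s hs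
    simpa using this

/-- **Main theorem.** Every deterministic algorithm that accesses the two input strings of length
`n` (over an alphabet of size `2 n`) only through longest-common-extension queries and that
approximates their edit distance within a factor `α ≥ 1` makes at least `n ^ 2 / (2 α ^ 2)`
queries on some input. -/
theorem result (n : ℕ) (α : ℝ) (hα : 1 ≤ α) (T : LceTree n) (hT : ApproximatesED T α) :
    ∃ x y : Fin n → ℕ, (∀ i, x i < 2 * n) ∧ (∀ j, y j < 2 * n) ∧
      (n : ℝ) ^ 2 / (2 * α ^ 2) ≤ T.cost (Sum.elim x y) := by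
  classical
  refine ⟨fun i => i.val, fun j => n + j.val, fun i => by have := i.2; simp only; omega,
    fun j => by have := j.2; simp only; omega, ?_⟩
  change (n : ℝ) ^ 2 / (2 * α ^ 2) ≤ T.cost (zA n)
  have hα0 : 0 < α := by linarith
  set M : ℝ := n / α with hM
  have hM0 : 0 ≤ M := by positivity
  have hMn : M ≤ n := div_le_self (by positivity) hα
  set S : ℕ := ⌊M / 2⌋₊ with hS
  have hS1 : (S : ℝ) ≤ M / 2 := Nat.floor_le (by positivity)
  have hS2 : M / 2 < S + 1 := Nat.lt_floor_add_one _
  have hSn : S ≤ n := by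
    have : (S : ℝ) ≤ n := by linarith
    exact_mod_cast this
  have hdiag : ∀ t ∈ Finset.Icc (-(S : ℤ)) S, M - 2 * |(t : ℝ)| ≤ (diagCount' T t : ℝ) := by
    intro t ht
    rw [Finset.mem_Icc] at ht
    have habs : |t| ≤ n := by
      rw [abs_le]; constructor <;> omega
    have := key_int' T α hα0.le hT t habs
    rw [hM, div_sub' hα0.ne', div_le_iff₀ hα0]
    nlinarith
  have hsum : ∑ t ∈ Finset.Icc (-(S : ℤ)) S, (M - 2 * |(t : ℝ)|) ≤
      ∑ t ∈ Finset.Icc (-(S : ℤ)) S, (diagCount' T t : ℝ) := Finset.sum_le_sum hdiag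
  have hfib : ∑ t ∈ Finset.Icc (-(S : ℤ)) S, diagCount' T t ≤ (queriedCells T).card := by
    unfold diagCount'
    rw [Finset.sum_card_fiberwise_eq_card_filter]
    exact Finset.card_filter_le _ _
  have hfib' : ∑ t ∈ Finset.Icc (-(S : ℤ)) S, (diagCount' T t : ℝ) ≤ T.cost (zA n) := by
    have := hfib.trans (card_queriedCells_le T)
    exact_mod_cast this
  rw [sum_abs] at hsum
  have hfinal : M ^ 2 / 2 ≤ (2 * S + 1) * M - 2 * S * (S + 1) := by
    nlinarith [mul_nonneg (sub_nonneg.2 hS1) (sub_nonneg.2 hS2.le)]
  have hrew : (n : ℝ) ^ 2 / (2 * α ^ 2) = M ^ 2 / 2 := by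
    rw [hM]; field_simp
  rw [hrew]
  linarith

end Vale.Agent.Results.P315.LceOracleLowerBound
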