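import Vale.Agent.Results.P315.LceOracleLowerBound

/-!
# P315: certifying a lower bound for the edit distance needs quadratically many LCE queries,
also for randomized algorithms with one-sided error

`NeverOver T α`: the output of the LCE decision tree `T` never exceeds `α * ED`.  On the input whose
`2 n` symbols are pairwise distinct, every such tree whose output is at least the edit distance
makes at least `n ^ 2 / (2 α ^ 2)` queries.  Hence, for a randomized algorithm (a probability
distribution on trees) all of whose trees have this property, the probability of making at least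
`n ^ 2 / (2 α ^ 2)` queries on that input is at least the probability that the output is not below
the edit distance.
-/

namespace Vale.Agent.Results.P315.OneSidedRandomized

open Vale.Agent.Results.P315.EqualityTestLowerBound
open Vale.Agent.Results.P315.LceOracleLowerBound
open scoped ENNReal

/-- the output of `T` never exceeds `α` times the edit distance (strings of length `n` over the
alphabet `{0, ..., 2 n - 1}`) -/
def NeverOver {n : ℕ} (T : LceTree n) (α : ℝ) : Prop :=
  ∀ x y : Fin n → ℕ, (∀ i, x i < 2 * n) → (∀ j, y j < 2 * n) →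
    T.eval (Sum.elim x y) ≤ α * ED (List.ofFn x) (List.ofFn y)

theorem keyO {n : ℕ} (T : LceTree n) (α : ℝ) (hU : NeverOver T α)
    (hL : (n : ℝ) ≤ T.eval (zA n)) (Y : ℕ → ℕ)
    (hlt : ∀ j, j < n → Y j < 2 * n)
    (hinj : ∀ j j', j < n → j' < n → Y j = Y j' → j = j')
    (hQ : ∀ i j, i < n → j < n → Y j = i → (i, j) ∉ queriedCells T) :
    (n : ℝ) ≤ α * ED ((List.range n).map id) ((List.range n).map Y) := by
  have hB := hU (fun i => i.val) (fun j => Y j.val) (fun i => by have := i.2; omega)
    (fun j => hlt _ j.2)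
  rw [eval_planted' T Y hinj hQ] at hB
  have e1 : List.ofFn (fun i : Fin n => i.val) = (List.range n).map id := ofFn_val n id
  have e3 : List.ofFn (fun j : Fin n => Y j.val) = (List.range n).map Y := ofFn_val n Y
  rw [e1, e3] at hB
  exact hL.trans hB

theorem keyO_plus {n : ℕ} (T : LceTree n) (α : ℝ) (hα : 0 ≤ α) (hU : NeverOver T α)
    (hL : (n : ℝ) ≤ T.eval (zA n)) (s : ℕ)
    (hs : s ≤ n) : (n : ℝ) ≤ α * (2 * s + diagCount' T s) := by
  classical
  obtain ⟨m, rfl⟩ : ∃ m, n = m + s := ⟨n - s, by omega⟩
  set Q := queriedCells T with hQdef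
  let Y : ℕ → ℕ := fun j => if s ≤ j ∧ (j - s, j) ∉ Q then j - s else (m + s) + j
  have hk := keyO T α hU hL Y
    (by
      intro j hj
      simp only [Y]; split_ifs <;> omega)
    (by
      intro j j' hj hj' h
      simp only [Y] at h
      split_ifs at h <;> omega)
    (by
      intro i j hi hj h
      simp only [Y] at h
      split_ifs at h with hc
      · have : j - s = i := h
        rw [← this]; exact hc.2
      · omega)
  have hsh := ED_shift (id : ℕ → ℕ) Y m s
  have hcard : ((Finset.range m).filter (fun i => id i ≠ Y (s + i))).card ≤ diagCount' T s := by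
    apply Finset.card_le_card_of_injOn (fun i => (i, s + i))
    · intro i hi
      simp only [Finset.coe_filter, Finset.mem_range, Set.mem_ofPred_eq] at hi
      obtain ⟨_, hne⟩ := hi
      simp only [Finset.coe_filter, Set.mem_ofPred_eq]
      refine ⟨?_, by push_cast; ring⟩
      by_contra hnot
      apply hne
      simp only [Y, id]
      rw [if_pos]
      · omega
      · refine ⟨by omega, ?_⟩
        have : s + i - s = i := by omega
        rw [this]; exact hnot
    · intro a _ b _ hab
      simpa using congrArg Prod.fst hab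
  have h1 : (ED ((List.range (m + s)).map id) ((List.range (m + s)).map Y) : ℝ) ≤
      2 * s + diagCount' T s := by
    have : ED ((List.range (m + s)).map id) ((List.range (m + s)).map Y) ≤
      2 * s + diagCount' T s := hsh.trans (by omega)
    exact_mod_cast this
  exact hk.trans (mul_le_mul_of_nonneg_left h1 hα)

theorem keyO_minus {n : ℕ} (T : LceTree n) (α : ℝ) (hα : 0 ≤ α) (hU : NeverOver T α)
    (hL : (n : ℝ) ≤ T.eval (zA n)) (s : ℕ)
    (hs : s ≤ n) : (n : ℝ) ≤ α * (2 * s + diagCount' T (-(s : ℤ))) := by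
  classical
  obtain ⟨m, rfl⟩ : ∃ m, n = m + s := ⟨n - s, by omega⟩
  set Q := queriedCells T with hQdef
  let Y : ℕ → ℕ := fun j => if j < m ∧ (s + j, j) ∉ Q then s + j else (m + s) + j
  have hk := keyO T α hU hL Y
    (by
      intro j hj
      simp only [Y]; split_ifs <;> omega)
    (by
      intro j j' hj hj' h
      simp only [Y] at h
      split_ifs at h <;> omega)
    (by
      intro i j hi hj h
      simp only [Y] at h
      split_ifs at h with hc
      · have : s + j = i := h
        rw [← this]; exact hc.2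
      · omega)
  have hsh := ED_shift Y (id : ℕ → ℕ) m s
  rw [ED_comm] at hsh
  have hcard : ((Finset.range m).filter (fun i => Y i ≠ id (s + i))).card ≤
      diagCount' T (-(s : ℤ)) := by
    apply Finset.card_le_card_of_injOn (fun i => (s + i, i))
    · intro i hi
      simp only [Finset.coe_filter, Finset.mem_range, Set.mem_ofPred_eq] at hi
      obtain ⟨him, hne⟩ := hi
      simp only [Finset.coe_filter, Set.mem_ofPred_eq]
      refine ⟨?_, by push_cast; ring⟩
      by_contra hnot
      apply hne
      simp only [Y, id]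
      rw [if_pos ⟨him, hnot⟩]
    · intro a _ b _ hab
      simpa using congrArg Prod.snd hab
  have h1 : (ED ((List.range (m + s)).map id) ((List.range (m + s)).map Y) : ℝ) ≤
      2 * s + diagCount' T (-(s : ℤ)) := by
    have : ED ((List.range (m + s)).map id) ((List.range (m + s)).map Y) ≤
      2 * s + diagCount' T (-(s : ℤ)) := hsh.trans (by omega)
    exact_mod_cast this
  exact hk.trans (mul_le_mul_of_nonneg_left h1 hα)

theorem keyO_int {n : ℕ} (T : LceTree n) (α : ℝ) (hα : 0 ≤ α) (hU : NeverOver T α)
    (hL : (n : ℝ) ≤ T.eval (zA n)) (t : ℤ)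
    (ht : |t| ≤ n) : (n : ℝ) ≤ α * (2 * |(t : ℝ)| + diagCount' T t) := by
  rcases le_total 0 t with h | h
  · obtain ⟨s, rfl⟩ := Int.eq_ofNat_of_zero_le h
    have hs : s ≤ n := by
      rw [abs_of_nonneg h] at ht; exact_mod_cast ht
    have := keyO_plus T α hα hU hL s hs
    simpa using this
  · obtain ⟨s, hs'⟩ := Int.eq_ofNat_of_zero_le (neg_nonneg.2 h)
    have ht' : t = -(s : ℤ) := by omega
    subst ht'
    have hs : s ≤ n := by
      rw [abs_neg, abs_of_nonneg (by positivity)] at ht; exact_mod_cast ht
    have := keyO_minus T α hα hU hL s hs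
    simpa using this

theorem cost_lower (n : ℕ) (α : ℝ) (hα : 1 ≤ α) (T : LceTree n) (hU : NeverOver T α)
    (hL : (n : ℝ) ≤ T.eval (zA n)) : (n : ℝ) ^ 2 / (2 * α ^ 2) ≤ T.cost (zA n) := by
  classical
  have hα0 : 0 < α := by linarith
  set M : ℝ := n / α with hM
  have hM0 : 0 ≤ M := by positivity
  have hMn : M ≤ n := div_le_self (by positivity) hα
  set S : ℕ := ⌊M / 2⌋₊ with hS
  have hS1 : (S : ℝ) ≤ M / 2 := Nat.floor_le (by positivity)
  have hS2 : M / 2 < S + 1 := Nat.lt_floor_add_one _
  have hSn : S ≤ n := by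
    have : (S : ℝ) ≤ n := by linarith
    exact_mod_cast this
  have hdiag : ∀ t ∈ Finset.Icc (-(S : ℤ)) S, M - 2 * |(t : ℝ)| ≤ (diagCount' T t : ℝ) := by
    intro t ht
    rw [Finset.mem_Icc] at ht
    have habs : |t| ≤ n := by
      rw [abs_le]; constructor <;> omega
    have := keyO_int T α hα0.le hU hL t habs
    rw [hM, div_sub' hα0.ne', div_le_iff₀ hα0]
    nlinarith
  have hsum : ∑ t ∈ Finset.Icc (-(S : ℤ)) S, (M - 2 * |(t : ℝ)|) ≤
      ∑ t ∈ Finset.Icc (-(S : ℤ)) S, (diagCount' T t : ℝ) := Finset.sum_le_sum hdiag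
  have hfib : ∑ t ∈ Finset.Icc (-(S : ℤ)) S, diagCount' T t ≤ (queriedCells T).card := by
    unfold diagCount'
    rw [Finset.sum_card_fiberwise_eq_card_filter]
    exact Finset.card_filter_le _ _
  have hfib' : ∑ t ∈ Finset.Icc (-(S : ℤ)) S, (diagCount' T t : ℝ) ≤ T.cost (zA n) := by
    have := hfib.trans (card_queriedCells_le T)
    exact_mod_cast this
  rw [sum_abs] at hsum
  have hfinal : M ^ 2 / 2 ≤ (2 * S + 1) * M - 2 * S * (S + 1) := by
    nlinarith [mul_nonneg (sub_nonneg.2 hS1) (sub_nonneg.2 hS2.le)]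
  have hrew : (n : ℝ) ^ 2 / (2 * α ^ 2) = M ^ 2 / 2 := by
    rw [hM]; field_simp
  rw [hrew]
  linarith


/-- **Main theorem.** -/
theorem result (n : ℕ) (α : ℝ) (hα : 1 ≤ α) :
    ∃ x y : Fin n → ℕ, (∀ i, x i < 2 * n) ∧ (∀ j, y j < 2 * n) ∧
      (∀ T : LceTree n, NeverOver T α →
        (ED (List.ofFn x) (List.ofFn y) : ℝ) ≤ T.eval (Sum.elim x y) →
        (n : ℝ) ^ 2 / (2 * α ^ 2) ≤ T.cost (Sum.elim x y)) ∧
      (∀ μ : PMF (LceTree n), (∀ T ∈ μ.support, NeverOver T α) →
        μ.toOuterMeasure {T | (ED (List.ofFn x) (List.ofFn y) : ℝ) ≤ T.eval (Sum.elim x y)} ≤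
          μ.toOuterMeasure {T | (n : ℝ) ^ 2 / (2 * α ^ 2) ≤ T.cost (Sum.elim x y)}) := by
  have hdet : ∀ T : LceTree n, NeverOver T α →
      (ED (List.ofFn (fun i : Fin n => i.val)) (List.ofFn (fun j : Fin n => n + j.val)) : ℝ)
        ≤ T.eval (zA n) → (n : ℝ) ^ 2 / (2 * α ^ 2) ≤ T.cost (zA n) := by
    intro T hU hE
    apply cost_lower n α hα T hU
    have e1 : List.ofFn (fun i : Fin n => i.val) = (List.range n).map id := ofFn_val n id
    have e2 : List.ofFn (fun j : Fin n => n + j.val) = (List.range n).map (fun j => n + j) :=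
      ofFn_val n (fun j => n + j)
    rw [e1, e2] at hE
    have hn : (n : ℝ) ≤ ED ((List.range n).map id) ((List.range n).map (fun j => n + j)) := by
      exact_mod_cast ED_hard n
    exact hn.trans hE
  refine ⟨fun i => i.val, fun j => n + j.val, fun i => by have := i.2; simp only; omega,
    fun j => by have := j.2; simp only; omega, hdet, ?_⟩
  intro μ hμ
  apply PMF.toOuterMeasure_mono
  rintro T ⟨hT1, hT2⟩
  exact hdet T (hμ T hT2) hT1

end Vale.Agent.Results.P315.OneSidedRandomized
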